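import Vale.Agent.P067.Main

namespace Vale.Agent.Results.P067.TopCohomologyLinear

open Vale.Agent.P067

universe u

theorem result (d D : ℕ) (hd : 1 ≤ d) (ε : ℝ) (hε : 0 < ε) :
    ∃ c : ℝ, 0 < c ∧ ∀ (V : Type u) [Fintype V] (X : AbstractSimplicialComplex V),
      IsPure X d → degree X d ≤ D →
      (IsCoboundaryExpander X d ε ∨ IsCosystolicExpander X d ε) →
      c * (Fintype.card V : ℝ) ≤
        1 + (Module.finrank (ZMod 2) (Cochain X d ⧸ cobounds X d) : ℝ) := by
  obtain ⟨c, hc, h⟩ := top_linear.{u} d D hd ε hε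
  refine ⟨c, hc, ?_⟩
  intro V _ X hp hD hX
  refine h V X hp hD (cofill_of_cosystolic ?_)
  rcases hX with hX | hX
  · exact cosystolic_of_coboundary hε hp hX
  · exact hX

end Vale.Agent.Results.P067.TopCohomologyLinear
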