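import Vale.Agent.Results.P067.DimensionMonotone
import Vale.Agent.Results.P067.TopCohomologyLinear

namespace Vale.Agent.Results.P067.A000_Combined

open Vale.Agent.P067

universe u

theorem result :
    (∀ (d D : ℕ), 1 ≤ d → ∀ ε : ℝ, 0 < ε →
      ∃ c : ℝ, 0 < c ∧ ∀ (V : Type u) [Fintype V] (X : AbstractSimplicialComplex V),
        IsPure X d → degree X d ≤ D →
        (IsCoboundaryExpander X d ε ∨ IsCosystolicExpander X d ε) →
        c * (Fintype.card V : ℝ) ≤
          1 + (Module.finrank (ZMod 2) (Cochain X d ⧸ cobounds X d) : ℝ)) ∧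
    (∀ d d' : ℕ, 1 ≤ d' → d' ≤ d →
      BoundedDegreeExpandersExist d → BoundedDegreeExpandersExist d') :=
  ⟨fun d D hd ε hε => TopCohomologyLinear.result.{u} d D hd ε hε,
    fun d d' h1 h2 h => DimensionMonotone.result d d' h1 h2 h⟩

end Vale.Agent.Results.P067.A000_Combined
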