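import Vale.Agent.P067.Skeleton

namespace Vale.Agent.Results.P067.DimensionMonotone

open Vale.Agent.P067

theorem result (d d' : ℕ) (h1 : 1 ≤ d') (h2 : d' ≤ d)
    (h : BoundedDegreeExpandersExist d) : BoundedDegreeExpandersExist d' := by
  induction d, h2 using Nat.le_induction with
  | base => exact h
  | succ k hk ih => exact ih (exist_of_exist_succ (le_trans h1 hk) h)

end Vale.Agent.Results.P067.DimensionMonotone
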